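import Mathlib
import Vale.Agent.P062.Defs
import Vale.Agent.P062.Run

/-!
# P062: Maker wins Snaky unless Breaker's first claim is adjacent to Maker's first claim
-/

set_option autoImplicit false

namespace Vale.Agent.Results.P062.NonAdjacentReply

open Vale.Agent.P062

theorem maskA_char : ∀ y < 16, ∀ x < 16, (!(maskA.testBit (ix 0 x y)) ||
    ((Nat.beq x 9 && Nat.beq y 8) || (Nat.beq x 7 && Nat.beq y 8) ||
      (Nat.beq x 8 && Nat.beq y 9) || (Nat.beq x 8 && Nat.beq y 7))) = true := by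
  decide +kernel

theorem notMem {b : Cell}
    (hb : b - ((8 : ℤ), (8 : ℤ)) ∉ ({(1, 0), (-1, 0), (0, 1), (0, -1)} : Finset Cell)) :
    b ∉ cs 0 maskA := by
  intro h
  obtain ⟨p, hp, rfl⟩ := mem_cs.1 h
  apply hb
  have hk := maskA_char _ hp.2.2 _ hp.2.1
  rw [hp.1] at hk
  simp only [Bool.not_true, Bool.false_or, Bool.or_eq_true, Bool.and_eq_true,
    Nat.beq_eq] at hk
  rcases hk with ((h | h) | h) | h <;> simp [cel, h.1, h.2]

theorem result :
    ∃ (σ : List Cell → Cell) (N : ℕ), ∀ b : ℕ → Cell, BreakerLegal σ b →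
      b 0 - σ [] ∉ ({(1, 0), (-1, 0), (0, 1), (0, -1)} : Finset Cell) →
      ∃ n ≤ N, MakerOwnsCopy σ b n := by
  obtain ⟨K, hK⟩ := exists_wins
  refine ⟨strat (8, 8) K, K, fun b hb hR => ?_⟩
  rw [strat_nil] at hR
  exact strategy_of_winsIn (m₀ := (8, 8)) (R := fun b => b ∉ cs 0 maskA)
    (fun b h1 h2 => hK b h1 h2) b hb (notMem hR)

end Vale.Agent.Results.P062.NonAdjacentReply
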