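import Mathlib
import Vale.Agent.P062.Defs
import Vale.Agent.P062W.Root

/-!
# P062: Maker wins the Snaky achievement game on the empty planar board
-/

set_option autoImplicit false

namespace Vale.Agent.Results.P062.SnakyWins

open Vale.Agent.P062

theorem result :
    ∃ (σ : List Cell → Cell) (N : ℕ), ∀ b : ℕ → Cell, BreakerLegal σ b →
      ∃ n ≤ N, MakerOwnsCopy σ b n := by
  obtain ⟨K, hK⟩ := P062W.root_wins
  exact P062W.final hK (by decide)

end Vale.Agent.Results.P062.SnakyWins
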